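import Vale.Agent.Lib.P193.Defs

namespace Vale.Agent.Lib.P193

/-- Cantor space. -/
abbrev C := ℕ → Bool

theorem pre_inj (u : List Bool) {t t' : C} (h : pre u t = pre u t') : t = t' := by
  induction u with
  | nil => exact h
  | cons b u ih =>
    apply ih
    funext i
    exact congrFun h (i + 1)

theorem preT_inj {ι : Type} (u : ι → List Bool) {t t' : ι → C} (h : preT u t = preT u t') :
    t = t' := by
  funext i
  exact pre_inj (u i) (congrFun h i)

theorem exists_split (k : ℕ) (y : C) :
    ∃ (u : List Bool) (s : C), u.length = k ∧ y = pre u s := by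
  induction k generalizing y with
  | zero => exact ⟨[], y, rfl, rfl⟩
  | succ k ih =>
    obtain ⟨u, s, hu, hs⟩ := ih (fun i => y (i + 1))
    refine ⟨y 0 :: u, s, by simp [hu], ?_⟩
    funext i
    cases i with
    | zero => rfl
    | succ i => exact congrFun hs i

theorem pre_word_eq {u v : List Bool} {s r : C} (hl : u.length = v.length)
    (h : pre u s = pre v r) : u = v ∧ s = r := by
  induction u generalizing v with
  | nil =>
    have : v = [] := by
      cases v with
      | nil => rfl
      | cons _ _ => simp at hl
    subst this
    exact ⟨rfl, h⟩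
  | cons a u ih =>
    cases v with
    | nil => simp at hl
    | cons b v =>
      have h0 : a = b := congrFun h 0
      have h1 : pre u s = pre v r := by
        funext i
        exact congrFun h (i + 1)
      obtain ⟨h2, h3⟩ := ih (by simpa using hl) h1
      exact ⟨by rw [h0, h2], h3⟩

/-- The group `V` acting on Cantor space (one coordinate). -/
def VV : Subgroup (Equiv.Perm C) where
  carrier := {f | ∀ x, ∃ (u v : List Bool) (s : C), x = pre u s ∧ ∀ t, f (pre u t) = pre v t}
  one_mem' := fun x => ⟨[], [], x, rfl, fun _ => rfl⟩
  inv_mem' := by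
    intro f hf x
    obtain ⟨u, v, s, hx, ht⟩ := hf (f⁻¹ x)
    refine ⟨v, u, s, ?_, fun t => ?_⟩
    · have := ht s
      rw [← hx] at this
      rw [← this]
      simp
    · rw [← ht t]
      simp
  mul_mem' := by
    intro f g hf hg x
    obtain ⟨u, v, s, hx, ht⟩ := hg x
    obtain ⟨u', v', s', hx', ht'⟩ := hf (pre v s)
    obtain ⟨a, b, S, h1, h2, h3⟩ := pre_refine v u' s s' hx'
    refine ⟨u ++ a, v' ++ b, S, ?_, fun t => ?_⟩
    · rw [hx, pre_append, ← h1]
    · rw [Equiv.Perm.mul_apply, pre_append, ht, ← pre_append, h3, pre_append, ht', pre_append]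

/-- If all coordinates of a product map are in `V` then the product map is in `BT`. -/
theorem piCongrRight_mem_BT {ι : Type} (g : ι → Equiv.Perm C) (hg : ∀ i, g i ∈ VV) :
    Equiv.piCongrRight g ∈ BT ι := by
  intro x
  have key : ∀ i, ∃ (u v : List Bool) (s : C),
      x i = pre u s ∧ ∀ t, g i (pre u t) = pre v t := fun i => hg i (x i)
  choose u v s h1 h2 using key
  refine ⟨u, v, s, ?_, fun t => ?_⟩
  · funext i
    exact h1 i
  · funext i
    exact h2 i (t i)

/-- The hyperbolic element: `1y ↦ 11y`, `00y ↦ 0y`, `01y ↦ 10y`. -/
def hFun (x : C) : C :=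
  if x 0 = true then pre [true] x
  else if x 1 = false then fun i => x (i + 1)
  else pre [true, false] (fun i => x (i + 2))

/-- The inverse of the hyperbolic element: `11y ↦ 1y`, `0y ↦ 00y`, `10y ↦ 01y`. -/
def hInv (x : C) : C :=
  if x 0 = false then pre [false] x
  else if x 1 = false then pre [false, true] (fun i => x (i + 2))
  else fun i => x (i + 1)

theorem hFun_one (t : C) : hFun (pre [true] t) = pre [true, true] t := by
  funext i
  cases i with
  | zero => rfl
  | succ i => cases i <;> rfl

theorem hFun_zz (t : C) : hFun (pre [false, false] t) = pre [false] t := by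
  funext i
  cases i <;> rfl

theorem hFun_zo (t : C) : hFun (pre [false, true] t) = pre [true, false] t := by
  funext i
  cases i with
  | zero => rfl
  | succ i => cases i <;> rfl

theorem hInv_oo (t : C) : hInv (pre [true, true] t) = pre [true] t := by
  funext i
  cases i <;> rfl

theorem hInv_z (t : C) : hInv (pre [false] t) = pre [false, false] t := by
  funext i
  cases i with
  | zero => rfl
  | succ i => cases i <;> rfl

theorem hInv_oz (t : C) : hInv (pre [true, false] t) = pre [false, true] t := by
  funext i
  cases i with
  | zero => rfl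
  | succ i => cases i <;> rfl

theorem split_two (x : C) : x = pre [x 0, x 1] (fun i => x (i + 2)) := by
  funext i
  cases i with
  | zero => rfl
  | succ i => cases i <;> rfl

theorem split_one (x : C) : x = pre [x 0] (fun i => x (i + 1)) := by
  funext i
  cases i <;> rfl

/-- The hyperbolic element as a permutation. -/
def hPerm : Equiv.Perm C where
  toFun := hFun
  invFun := hInv
  left_inv := by
    intro x
    rcases h0 : x 0 with _ | _
    · rcases h1 : x 1 with _ | _
      · rw [split_two x, h0, h1, hFun_zz, hInv_z]
      · rw [split_two x, h0, h1, hFun_zo, hInv_oz]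
    · rw [split_one x, h0, hFun_one, hInv_oo]
  right_inv := by
    intro x
    rcases h0 : x 0 with _ | _
    · rw [split_one x, h0, hInv_z, hFun_zz]
    · rcases h1 : x 1 with _ | _
      · rw [split_two x, h0, h1, hInv_oz, hFun_zo]
      · rw [split_two x, h0, h1, hInv_oo, hFun_one]

@[simp] theorem hPerm_apply (x : C) : hPerm x = hFun x := rfl

theorem hPerm_mem : hPerm ∈ VV := by
  intro x
  rcases h0 : x 0 with _ | _
  · rcases h1 : x 1 with _ | _
    · refine ⟨[false, false], [false], fun i => x (i + 2), ?_, hFun_zz⟩
      conv_lhs => rw [split_two x, h0, h1]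
    · refine ⟨[false, true], [true, false], fun i => x (i + 2), ?_, hFun_zo⟩
      conv_lhs => rw [split_two x, h0, h1]
  · refine ⟨[true], [true, true], fun i => x (i + 1), ?_, hFun_one⟩
    conv_lhs => rw [split_one x, h0]

/-- The orbit of the cylinder `01 C` under the hyperbolic element. -/
def orb : ℤ → C → C
  | Int.ofNat 0, t => pre [false, true] t
  | Int.ofNat (k + 1), t => pre (List.replicate (k + 1) true ++ [false]) t
  | Int.negSucc k, t => pre (List.replicate (k + 2) false ++ [true]) t

theorem hPerm_orb (n : ℤ) (t : C) : hPerm (orb n t) = orb (n + 1) t := by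
  rcases n with n | k
  · cases n with
    | zero => exact hFun_zo t
    | succ k =>
      have e : orb (Int.ofNat (k + 1) + 1) t = orb (Int.ofNat (k + 2)) t := rfl
      rw [e]
      show hFun (pre (List.replicate (k + 1) true ++ [false]) t)
        = pre (List.replicate (k + 2) true ++ [false]) t
      have e1 : List.replicate (k + 1) true ++ [false]
          = [true] ++ (List.replicate k true ++ [false]) := by
        simp [List.replicate_succ]
      have e2 : List.replicate (k + 2) true ++ [false]
          = [true, true] ++ (List.replicate k true ++ [false]) := by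
        simp [List.replicate_succ]
      rw [e1, e2, pre_append [true] _, pre_append [true, true] _, hFun_one]
  · cases k with
    | zero =>
      have e : orb (Int.negSucc 0 + 1) t = orb (Int.ofNat 0) t := rfl
      rw [e]
      show hFun (pre (List.replicate 2 false ++ [true]) t) = pre [false, true] t
      have e1 : List.replicate 2 false ++ [true] = [false, false] ++ [true] := rfl
      have e2 : [false, true] = [false] ++ [true] := rfl
      rw [e1, e2, pre_append [false, false] _, pre_append [false] _, hFun_zz]
    | succ j =>
      have e : orb (Int.negSucc (j + 1) + 1) t = orb (Int.negSucc j) t := by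
        congr 1
      rw [e]
      show hFun (pre (List.replicate (j + 3) false ++ [true]) t)
        = pre (List.replicate (j + 2) false ++ [true]) t
      have e1 : List.replicate (j + 3) false ++ [true]
          = [false, false] ++ (List.replicate (j + 1) false ++ [true]) := by
        simp [List.replicate_succ]
      have e2 : List.replicate (j + 2) false ++ [true]
          = [false] ++ (List.replicate (j + 1) false ++ [true]) := by
        simp [List.replicate_succ]
      rw [e1, e2, pre_append [false, false] _, pre_append [false] _, hFun_zz]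

theorem hPerm_zpow_orb (n : ℤ) (t : C) : (hPerm ^ n) (orb 0 t) = orb n t := by
  induction n using Int.induction_on with
  | zero => simp
  | succ k ih =>
    have e : hPerm ^ ((k : ℤ) + 1) = hPerm * hPerm ^ (k : ℤ) := by
      rw [add_comm, zpow_one_add]
    rw [e, Equiv.Perm.mul_apply, ih, hPerm_orb]
  | pred k ih =>
    have h1 := hPerm_orb (-(k : ℤ) - 1) t
    rw [show (-(k : ℤ) - 1 + 1) = -(k : ℤ) by ring, ← ih] at h1
    have e : hPerm ^ (-(k : ℤ) - 1) = hPerm⁻¹ * hPerm ^ (-(k : ℤ)) := by
      rw [show (-(k : ℤ) - 1) = -1 + (-(k : ℤ)) by ring, zpow_add, zpow_neg_one]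
    rw [e, Equiv.Perm.mul_apply, ← h1]
    exact hPerm.symm_apply_apply _

theorem orb_eq_zero_of_start {n : ℤ} {t t' : C} (h : orb n t = pre [false, true] t') : n = 0 := by
  rcases n with n | k
  · cases n with
    | zero => rfl
    | succ k =>
      have h0 : (true : Bool) = false := congrFun h 0
      cases h0
  · have h1 : (false : Bool) = true := congrFun h 1
    cases h1

theorem hPerm_zpow_orb_zero (n : ℤ) (t : C) : (hPerm ^ n) (pre [false, true] t) = orb n t :=
  hPerm_zpow_orb n t

/-- The action of `ℤ^ι` on the Cantor cube, by powers of the hyperbolic element in the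
coordinates. -/
noncomputable def zHom (ι : Type) : Multiplicative (ι →₀ ℤ) →* BT ι where
  toFun q := ⟨Equiv.piCongrRight (fun i => hPerm ^ (Multiplicative.toAdd q i)),
    piCongrRight_mem_BT _ (fun i => VV.zpow_mem hPerm_mem _)⟩
  map_one' := by
    apply Subtype.ext
    ext x i n
    simp
  map_mul' p q := by
    apply Subtype.ext
    ext x i n
    simp [zpow_add]

theorem zHom_apply {ι : Type} (q : Multiplicative (ι →₀ ℤ)) (x : ι → C) (i : ι) :
    ((zHom ι q : Equiv.Perm (ι → C)) x) i = (hPerm ^ (Multiplicative.toAdd q i)) (x i) := rfl

/-- The rectangle `(01 C)^ι` wanders under `ℤ^ι`. -/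
theorem zHom_wander {ι : Type} (q : Multiplicative (ι →₀ ℤ)) (hq : q ≠ 1) (t t' : ι → C) :
    (zHom ι q : Equiv.Perm (ι → C)) (preT (fun _ => [false, true]) t)
      ≠ preT (fun _ => [false, true]) t' := by
  intro h
  apply hq
  apply Multiplicative.toAdd.injective
  ext i
  have h1 := congrFun h i
  rw [zHom_apply] at h1
  show Multiplicative.toAdd q i = 0
  have h2 : (hPerm ^ (Multiplicative.toAdd q i)) (pre [false, true] (t i))
      = pre [false, true] (t' i) := h1
  rw [hPerm_zpow_orb_zero] at h2
  exact orb_eq_zero_of_start h2

end Vale.Agent.Lib.P193
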