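import Mathlib

namespace Vale.Agent.Lib.P193

/-- `pre u t` is the infinite binary sequence that starts with the finite word `u`
and continues with the infinite binary sequence `t`. -/
def pre : List Bool → (ℕ → Bool) → ℕ → Bool
  | [], t, i => t i
  | b :: _, _, 0 => b
  | _ :: u, t, i + 1 => pre u t i

/-- Coordinatewise version of `pre` on the Cantor cube `ι → (ℕ → Bool)`. -/
def preT {ι : Type} (u : ι → List Bool) (t : ι → ℕ → Bool) : ι → ℕ → Bool :=
  fun i => pre (u i) (t i)

theorem pre_append (u v : List Bool) (t : ℕ → Bool) :
    pre (u ++ v) t = pre u (pre v t) := by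
  induction u with
  | nil => rfl
  | cons b u ih =>
    funext i
    cases i with
    | zero => rfl
    | succ i => exact congrFun ih i

theorem pre_refine (v u : List Bool) (s r : ℕ → Bool) (h : pre v s = pre u r) :
    ∃ (a b : List Bool) (S : ℕ → Bool), s = pre a S ∧ r = pre b S ∧ v ++ a = u ++ b := by
  induction v generalizing u with
  | nil => exact ⟨u, [], r, h, rfl, by simp⟩
  | cons c v ih =>
    cases u with
    | nil => exact ⟨[], c :: v, s, rfl, h.symm, by simp⟩
    | cons d u =>
      have h0 : c = d := congrFun h 0
      have h1 : pre v s = pre u r := by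
        funext i
        exact congrFun h (i + 1)
      obtain ⟨a, b, S, hs, hr, hab⟩ := ih u h1
      exact ⟨a, b, S, hs, hr, by simp [h0, hab]⟩

/-- The Brin-Thompson group on the index set `ι` (for `ι = Fin n` this is `nV`): all bijections
`f` of the Cantor cube `ι → (ℕ → Bool)` such that every point `x` lies in a dyadic rectangle
`{preT u t | t}` on which `f` acts by the replacement of the initial words `u` by words `v`,
that is `f (preT u t) = preT v t` for all `t`. By compactness finitely many rectangles suffice,
so this is the usual group of piecewise prefix-replacement homeomorphisms of the cube. -/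
def BT (ι : Type) : Subgroup (Equiv.Perm (ι → ℕ → Bool)) where
  carrier := {f | ∀ x, ∃ (u v : ι → List Bool) (s : ι → ℕ → Bool),
    x = preT u s ∧ ∀ t, f (preT u t) = preT v t}
  one_mem' := fun x => ⟨fun _ => [], fun _ => [], x, rfl, fun _ => rfl⟩
  inv_mem' := by
    intro f hf x
    obtain ⟨u, v, s, hx, ht⟩ := hf (f⁻¹ x)
    refine ⟨v, u, s, ?_, fun t => ?_⟩
    · have := ht s
      rw [← hx] at this
      rw [← this]
      simp
    · rw [← ht t]
      simp
  mul_mem' := by
    intro f g hf hg x
    obtain ⟨u, v, s, hx, ht⟩ := hg x
    obtain ⟨u', v', s', hx', ht'⟩ := hf (preT v s)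
    have key : ∀ i, ∃ (a b : List Bool) (S : ℕ → Bool),
        s i = pre a S ∧ s' i = pre b S ∧ v i ++ a = u' i ++ b := fun i =>
      pre_refine (v i) (u' i) (s i) (s' i) (congrFun hx' i)
    choose a b S h1 h2 h3 using key
    refine ⟨fun i => u i ++ a i, fun i => v' i ++ b i, S, ?_, fun t => ?_⟩
    · rw [hx]
      funext i
      simp only [preT, pre_append, ← h1]
    · have e1 : preT (fun i => u i ++ a i) t = preT u (preT a t) := by
        funext i
        simp only [preT, pre_append]
      have e2 : preT v (preT a t) = preT u' (preT b t) := by
        funext i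
        simp only [preT]
        rw [← pre_append, h3, pre_append]
      have e3 : preT (fun i => v' i ++ b i) t = preT v' (preT b t) := by
        funext i
        simp only [preT, pre_append]
      rw [e1, Equiv.Perm.mul_apply, ht, e2, ht', e3]

end Vale.Agent.Lib.P193
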