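import Vale.Agent.Lib.P193.Wreath

namespace Vale.Agent.Lib.P193

open scoped RegularWreathProduct

section Magnus

variable {α Q : Type} [Group Q] (π : FreeGroup α →* Q)

open Classical in
/-- The Magnus map `F → ℤ^α ≀ Q`. -/
noncomputable def magnus : FreeGroup α →* RegularWreathProduct (Multiplicative (α →₀ ℤ)) Q :=
  FreeGroup.lift fun a =>
    ⟨Pi.mulSingle 1 (Multiplicative.ofAdd (Finsupp.single a 1)), π (FreeGroup.of a)⟩

theorem magnus_right (w : FreeGroup α) : (magnus π w).right = π w := by
  have : (RegularWreathProduct.rightHom).comp (magnus π) = π := by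
    apply FreeGroup.ext_hom
    intro a
    simp [magnus]
  exact DFunLike.congr_fun this w

theorem magnus_mem (w : FreeGroup α) :
    magnus π w ∈ restricted (Multiplicative (α →₀ ℤ)) Q := by
  have : (magnus π).range ≤ restricted (Multiplicative (α →₀ ℤ)) Q := by
    classical
    unfold magnus
    apply FreeGroup.range_lift_le
    rintro _ ⟨a, rfl⟩
    show (Function.mulSupport (Pi.mulSingle (1 : Q)
      (Multiplicative.ofAdd (Finsupp.single a (1 : ℤ))))).Finite
    exact (Set.finite_singleton (1 : Q)).subset Pi.mulSupport_mulSingle_subset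
  exact this ⟨w, rfl⟩

/-- The universal trace hom. -/
noncomputable def trHom :
    FreeGroup α →* RegularWreathProduct (Multiplicative ((Q × α) →₀ ℤ)) Q :=
  FreeGroup.lift fun a =>
    ⟨fun x => Multiplicative.ofAdd (Finsupp.single (x⁻¹, a) 1), π (FreeGroup.of a)⟩

theorem trHom_right (w : FreeGroup α) : (trHom π w).right = π w := by
  have : (RegularWreathProduct.rightHom).comp (trHom π) = π := by
    apply FreeGroup.ext_hom
    intro a
    simp [trHom]
  exact DFunLike.congr_fun this w

/-- The signed edge count of the path of `w` in the Cayley graph of `Q` starting at `p`. -/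
noncomputable def tr (w : FreeGroup α) (p : Q) : (Q × α) →₀ ℤ :=
  Multiplicative.toAdd ((trHom π w).left p⁻¹)

theorem tr_one (p : Q) : tr π (1 : FreeGroup α) p = 0 := by
  simp [tr]

theorem tr_of (a : α) (p : Q) : tr π (FreeGroup.of a) p = Finsupp.single (p, a) 1 := by
  simp [tr, trHom]

theorem tr_mul (u v : FreeGroup α) (p : Q) :
    tr π (u * v) p = tr π u p + tr π v (p * π u) := by
  simp [tr, map_mul, trHom_right, mul_inv_rev]

theorem tr_inv (w : FreeGroup α) (p : Q) :
    tr π w⁻¹ p = - tr π w (p * (π w)⁻¹) := by
  have h := tr_mul π w⁻¹ w p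
  rw [inv_mul_cancel, tr_one, map_inv] at h
  exact eq_neg_of_add_eq_zero_left h.symm

theorem tr_magnus (w : FreeGroup α) (r s : Q) (a : α) :
    tr π w r (r * s, a) = Multiplicative.toAdd ((magnus π w).left s) a := by
  classical
  induction w using FreeGroup.induction_on generalizing r s with
  | C1 =>
    rw [tr_one]
    simp
  | of x =>
    rw [tr_of]
    simp only [magnus, FreeGroup.lift_apply_of]
    by_cases hs : s = 1
    · subst hs
      simp [Finsupp.single_apply]
    · have h1 : r ≠ r * s := by
        intro h
        exact hs (by simpa using h.symm)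
      simp [Finsupp.single_apply, h1, Pi.mulSingle_eq_of_ne hs]
  | inv_of x ih =>
    rw [tr_inv, Finsupp.neg_apply]
    have e : r * s = (r * (π (FreeGroup.of x))⁻¹) * ((π (FreeGroup.of x)) * s) := by group
    rw [e, ih]
    simp only [map_inv, RegularWreathProduct.inv_left, magnus_right]
    rfl
  | mul u v ihu ihv =>
    rw [tr_mul, Finsupp.add_apply, ihu]
    have e : r * s = (r * π u) * ((π u)⁻¹ * s) := by group
    rw [e, ihv]
    simp only [map_mul, RegularWreathProduct.mul_left, magnus_right]
    rfl

/-- Section of `π` with value `1` at `1`. -/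
noncomputable def sec (hπ : Function.Surjective π) (q : Q) : FreeGroup α :=
  open Classical in if q = 1 then 1 else Function.surjInv hπ q

theorem sec_spec (hπ : Function.Surjective π) (q : Q) : π (sec π hπ q) = q := by
  unfold sec
  by_cases h : q = 1
  · simp [h]
  · simp [h, Function.surjInv_eq]

theorem sec_one (hπ : Function.Surjective π) : sec π hπ 1 = 1 := by
  simp [sec]

/-- Schreier element. -/
noncomputable def schr (hπ : Function.Surjective π) (q : Q) (w : FreeGroup α) : π.ker :=
  ⟨sec π hπ q * w * (sec π hπ (q * π w))⁻¹, by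
    rw [MonoidHom.mem_ker]
    simp [sec_spec]⟩

/-- The class of a Schreier element in the abelianization of the kernel. -/
noncomputable def cl (hπ : Function.Surjective π) (q : Q) (w : FreeGroup α) :
    Additive (Abelianization π.ker) :=
  Additive.ofMul (Abelianization.of (schr π hπ q w))

theorem schr_mul (hπ : Function.Surjective π) (q : Q) (u v : FreeGroup α) :
    schr π hπ q (u * v) = schr π hπ q u * schr π hπ (q * π u) v := by
  apply Subtype.ext
  simp [schr, mul_assoc]

theorem cl_mul (hπ : Function.Surjective π) (q : Q) (u v : FreeGroup α) :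
    cl π hπ q (u * v) = cl π hπ q u + cl π hπ (q * π u) v := by
  simp [cl, schr_mul]

theorem cl_one (hπ : Function.Surjective π) (q : Q) : cl π hπ q (1 : FreeGroup α) = 0 := by
  have h1 : schr π hπ q (1 : FreeGroup α) = 1 := by
    apply Subtype.ext
    simp [schr]
  simp [cl, h1]

theorem cl_inv (hπ : Function.Surjective π) (q : Q) (w : FreeGroup α) :
    cl π hπ q w⁻¹ = - cl π hπ (q * (π w)⁻¹) w := by
  have h := cl_mul π hπ q w⁻¹ w
  rw [inv_mul_cancel, cl_one, map_inv] at h
  exact eq_neg_of_add_eq_zero_left h.symm

/-- The linear map from edge chains to the abelianization of the kernel. -/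
noncomputable def theta (hπ : Function.Surjective π) :
    ((Q × α) →₀ ℤ) →+ Additive (Abelianization π.ker) :=
  Finsupp.liftAddHom fun e => (zmultiplesHom _) (cl π hπ e.1 (FreeGroup.of e.2))

theorem cl_eq_theta (hπ : Function.Surjective π) (w : FreeGroup α) (q : Q) :
    cl π hπ q w = theta π hπ (tr π w q) := by
  induction w using FreeGroup.induction_on generalizing q with
  | C1 => rw [cl_one, tr_one, map_zero]
  | of x =>
    rw [tr_of]
    simp [theta]
  | inv_of x ih => rw [cl_inv, ih, tr_inv, map_neg]
  | mul u v ihu ihv => rw [cl_mul, tr_mul, map_add, ihu, ihv]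

theorem mem_commutator_of_magnus_eq_one (hπ : Function.Surjective π) (w : FreeGroup α)
    (h : magnus π w = 1) : w ∈ ⁅π.ker, π.ker⁆ := by
  have hw : π w = 1 := by
    rw [← magnus_right, h]
    rfl
  have hmem : w ∈ π.ker := hw
  have htr : tr π w 1 = 0 := by
    ext ⟨s, a⟩
    have := tr_magnus π w 1 s a
    rw [one_mul] at this
    rw [this, h]
    rfl
  have hcl : cl π hπ 1 w = 0 := by
    rw [cl_eq_theta, htr, map_zero]
  have hschr : schr π hπ 1 w = ⟨w, hmem⟩ := by
    apply Subtype.ext
    simp [schr, hw, sec_one]
  rw [cl, hschr] at hcl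
  have h2 : Abelianization.of (⟨w, hmem⟩ : π.ker) = 1 := hcl
  have h3 : (⟨w, hmem⟩ : π.ker) ∈ commutator π.ker := by
    rw [← Abelianization.ker_of]
    exact h2
  rw [← Subgroup.map_subtype_commutator]
  exact ⟨_, h3, rfl⟩

theorem commutator_le_ker_magnus : ⁅π.ker, π.ker⁆ ≤ (magnus π).ker := by
  rw [Subgroup.commutator_le]
  intro g hg g' hg'
  rw [MonoidHom.mem_ker, map_commutatorElement, commutatorElement_eq_one_iff_commute]
  have h1 : (magnus π g).right = 1 := by rw [magnus_right]; exact hg
  have h2 : (magnus π g').right = 1 := by rw [magnus_right]; exact hg'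
  ext x
  · simp [h1, h2, mul_comm]
  · simp [h1, h2]

/-- **Magnus embedding**: the kernel of the Magnus map is `[N, N]`. -/
theorem magnus_ker (hπ : Function.Surjective π) : (magnus π).ker = ⁅π.ker, π.ker⁆ :=
  le_antisymm (fun w hw => mem_commutator_of_magnus_eq_one π hπ w hw) (commutator_le_ker_magnus π)

end Magnus

section Main

variable {α Q κ : Type} [Group Q]

/-- General theorem: `F / [N, N]` embeds in `BT κ` whenever `F / N` acts with a wandering
rectangle and `ℤ^α` embeds in `BT κ`. -/
theorem exists_hom_ker_eq (π : FreeGroup α →* Q) (hπ : Function.Surjective π)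
    (ρ : Q →* BT κ) (w : κ → List Bool) (hw : Wandering ρ w)
    (η : Multiplicative (α →₀ ℤ) →* BT κ) (hη : Function.Injective η) :
    ∃ f : FreeGroup α →* BT κ, f.ker = ⁅π.ker, π.ker⁆ := by
  refine ⟨MonoidHom.codRestrict ((psi hw η).comp (magnus π)) (BT κ)
    (fun x => psi_mem hw _ (magnus_mem π x)), ?_⟩
  rw [← magnus_ker π hπ]
  ext x
  rw [MonoidHom.mem_ker, MonoidHom.mem_ker]
  constructor
  · intro h
    have h1 : psi hw η (magnus π x) = 1 := congrArg (fun y : BT κ => (y : Equiv.Perm (κ → C))) h
    exact (injective_iff_map_eq_one _).mp (psi_injective hw hη) _ h1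
  · intro h
    apply Subtype.ext
    show psi hw η (magnus π x) = 1
    rw [h, map_one]

end Main

section FreeMetabelian

/-- The abelianization map of a free group, with values in `ℤ^α`. -/
noncomputable def abelMap (α : Type) : FreeGroup α →* Multiplicative (α →₀ ℤ) :=
  FreeGroup.lift fun a => Multiplicative.ofAdd (Finsupp.single a 1)

theorem abelMap_surjective (α : Type) : Function.Surjective (abelMap α) := by
  intro q
  induction q using Multiplicative.rec with
  | ofAdd f =>
    induction f using Finsupp.induction_linear with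
    | zero => exact ⟨1, by simp⟩
    | add f g hf hg =>
      obtain ⟨x, hx⟩ := hf
      obtain ⟨y, hy⟩ := hg
      exact ⟨x * y, by rw [map_mul, hx, hy]; rfl⟩
    | single a n =>
      refine ⟨(FreeGroup.of a) ^ n, ?_⟩
      rw [map_zpow]
      simp [abelMap, ← ofAdd_zsmul]

/-- Left inverse of the abelianization map on the abelianization. -/
noncomputable def abelInv (α : Type) : (α →₀ ℤ) →+ Additive (Abelianization (FreeGroup α)) :=
  Finsupp.liftAddHom fun a =>
    (zmultiplesHom _) (Additive.ofMul (Abelianization.of (FreeGroup.of a)))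

theorem abelInv_abelMap (α : Type) (w : FreeGroup α) :
    abelInv α (Multiplicative.toAdd (abelMap α w)) = Additive.ofMul (Abelianization.of w) := by
  induction w using FreeGroup.induction_on with
  | C1 => simp
  | of x => simp [abelMap, abelInv]
  | inv_of x ih => simp [ih]
  | mul u v ihu ihv => simp [ihu, ihv]

theorem abelMap_ker (α : Type) : (abelMap α).ker = commutator (FreeGroup α) := by
  apply le_antisymm
  · intro w hw
    have h1 : abelMap α w = 1 := hw
    have h2 := abelInv_abelMap α w
    rw [h1] at h2
    have h3 : Abelianization.of w = 1 := by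
      have : Additive.ofMul (Abelianization.of w) = 0 := by
        rw [← h2]
        simp
      exact this
    rw [← Abelianization.ker_of]
    exact h3
  · exact Abelianization.commutator_subset_ker _

theorem zHom_injective (ι : Type) : Function.Injective (zHom ι) := by
  rw [injective_iff_map_eq_one]
  intro q hq
  by_contra hne
  apply zHom_wander q hne (fun _ _ => false) (fun _ _ => false)
  rw [hq]
  rfl

/-- For every `r`, the free metabelian group of rank `r` embeds in `BT (Fin r) = rV`. -/
theorem free_metabelian_embedding (r : ℕ) :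
    ∃ f : FreeGroup (Fin r) →* BT (Fin r), f.ker = derivedSeries (FreeGroup (Fin r)) 2 := by
  have h := exists_hom_ker_eq (abelMap (Fin r)) (abelMap_surjective _) (zHom (Fin r))
    (fun _ => [false, true]) (fun q hq t t' => zHom_wander q hq t t') (zHom (Fin r))
    (zHom_injective _)
  rw [abelMap_ker] at h
  simpa [derivedSeries, commutator] using h

end FreeMetabelian

end Vale.Agent.Lib.P193
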