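import Vale.Agent.Lib.P193.Basic

namespace Vale.Agent.Lib.P193

open scoped RegularWreathProduct

/-- The restricted wreath product `G ≀ Q`: the subgroup of the (unrestricted) regular wreath
product of the elements whose function part has finite support. -/
def restricted (G Q : Type) [Group G] [Group Q] : Subgroup (RegularWreathProduct G Q) where
  carrier := {w | (Function.mulSupport w.left).Finite}
  one_mem' := by
    simp
  mul_mem' := by
    intro a b ha hb
    have hb' : (Function.mulSupport (fun x => b.left (a.right⁻¹ * x))).Finite := by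
      have : Function.mulSupport (fun x => b.left (a.right⁻¹ * x))
          = (fun x => a.right * x) '' Function.mulSupport b.left := by
        ext x
        simp only [Function.mem_mulSupport, Set.mem_image]
        constructor
        · intro h
          exact ⟨a.right⁻¹ * x, h, by simp⟩
        · rintro ⟨y, hy, rfl⟩
          simpa using hy
      rw [this]
      exact hb.image _
    refine (ha.union hb').subset ?_
    intro x hx
    simp only [Set.mem_union, Function.mem_mulSupport]
    by_contra hcon
    push Not at hcon
    apply hx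
    simp [hcon.1, hcon.2]
  inv_mem' := by
    intro a ha
    have : Function.mulSupport (a⁻¹).left = (fun x => a.right⁻¹ * x) '' Function.mulSupport a.left := by
      ext x
      simp only [RegularWreathProduct.inv_left, Function.mem_mulSupport, Set.mem_image]
      constructor
      · intro h
        refine ⟨a.right * x, ?_, by simp⟩
        intro h2
        apply h
        simp [h2]
      · rintro ⟨y, hy, rfl⟩
        simpa using hy
    show (Function.mulSupport (a⁻¹).left).Finite
    rw [this]
    exact Set.Finite.image _ ha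

section Action

variable {κ : Type} {G Q : Type} [Group G] [Group Q]

/-- The action of an element of `BT κ` on a point of the cube. -/
def on (g : BT κ) (z : κ → C) : κ → C := (g : Equiv.Perm (κ → C)) z

@[simp] theorem on_one (z : κ → C) : on (1 : BT κ) z = z := rfl

theorem on_mul (g h : BT κ) (z : κ → C) : on (g * h) z = on g (on h z) := rfl

@[simp] theorem on_inv_on (g : BT κ) (z : κ → C) : on g⁻¹ (on g z) = z := by
  show (g : Equiv.Perm (κ → C))⁻¹ ((g : Equiv.Perm (κ → C)) z) = z
  simp

@[simp] theorem on_on_inv (g : BT κ) (z : κ → C) : on g (on g⁻¹ z) = z := by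
  show (g : Equiv.Perm (κ → C)) ((g : Equiv.Perm (κ → C))⁻¹ z) = z
  simp

/-- The rectangle `w` wanders under `ρ`. -/
def Wandering (ρ : Q →* BT κ) (w : κ → List Bool) : Prop :=
  ∀ q : Q, q ≠ 1 → ∀ t t' : κ → C, on (ρ q) (preT w t) ≠ preT w t'

theorem pos_unique {ρ : Q →* BT κ} {w : κ → List Bool} (hw : Wandering ρ w) {p p' : Q}
    {t t' : κ → C} (h : on (ρ p) (preT w t) = on (ρ p') (preT w t')) :
    p = p' ∧ t = t' := by
  have h1 : on (ρ (p'⁻¹ * p)) (preT w t) = preT w t' := by
    rw [map_mul, on_mul, h, map_inv, on_inv_on]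
  by_cases hq : p'⁻¹ * p = 1
  · have hp : p = p' := by
      have := mul_eq_one_iff_eq_inv.mp hq
      simpa using this.symm
    subst hp
    refine ⟨rfl, ?_⟩
    rw [hq, map_one, on_one] at h1
    exact preT_inj w h1
  · exact absurd h1 (hw _ hq t t')

open Classical in
/-- The lamp action: on the translate `on (ρ p) (preT w t)` the function `b` acts through the value
`b p` on the tail `t`; outside all translates nothing moves. -/
noncomputable def lamp (ρ : Q →* BT κ) (η : G →* BT κ) (w : κ → List Bool)
    (b : Q → G) (z : κ → C) : κ → C :=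
  if h : ∃ pt : Q × (κ → C), z = on (ρ pt.1) (preT w pt.2) then
    on (ρ h.choose.1) (preT w (on (η (b h.choose.1)) h.choose.2))
  else z

variable {ρ : Q →* BT κ} {η : G →* BT κ} {w : κ → List Bool}

theorem lamp_mem (hw : Wandering ρ w) (b : Q → G) (p : Q) (t : κ → C) :
    lamp ρ η w b (on (ρ p) (preT w t)) = on (ρ p) (preT w (on (η (b p)) t)) := by
  have h : ∃ pt : Q × (κ → C), on (ρ p) (preT w t) = on (ρ pt.1) (preT w pt.2) := ⟨(p, t), rfl⟩
  unfold lamp
  rw [dif_pos h]
  obtain ⟨h1, h2⟩ := pos_unique hw h.choose_spec
  rw [← h1, ← h2]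

theorem lamp_not_mem (b : Q → G) (z : κ → C)
    (h : ¬ ∃ pt : Q × (κ → C), z = on (ρ pt.1) (preT w pt.2)) :
    lamp ρ η w b z = z := by
  unfold lamp
  rw [dif_neg h]

theorem lamp_one (hw : Wandering ρ w) (z : κ → C) : lamp ρ η w (1 : Q → G) z = z := by
  by_cases h : ∃ pt : Q × (κ → C), z = on (ρ pt.1) (preT w pt.2)
  · obtain ⟨⟨p, t⟩, rfl⟩ := h
    rw [lamp_mem hw]
    simp
  · exact lamp_not_mem _ _ h

theorem lamp_mul (hw : Wandering ρ w) (b b' : Q → G) (z : κ → C) :
    lamp ρ η w (b * b') z = lamp ρ η w b (lamp ρ η w b' z) := by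
  by_cases h : ∃ pt : Q × (κ → C), z = on (ρ pt.1) (preT w pt.2)
  · obtain ⟨⟨p, t⟩, rfl⟩ := h
    simp only [lamp_mem hw, Pi.mul_apply, map_mul, on_mul]
  · rw [lamp_not_mem _ _ h, lamp_not_mem _ _ h, lamp_not_mem _ _ h]

theorem lamp_translate (hw : Wandering ρ w) (b : Q → G) (q : Q) (z : κ → C) :
    on (ρ q) (lamp ρ η w b z) = lamp ρ η w (fun x => b (q⁻¹ * x)) (on (ρ q) z) := by
  by_cases h : ∃ pt : Q × (κ → C), z = on (ρ pt.1) (preT w pt.2)
  · obtain ⟨⟨p, t⟩, rfl⟩ := h
    simp only
    have e : ∀ y, on (ρ q) (on (ρ p) y) = on (ρ (q * p)) y := fun y => by rw [map_mul, on_mul]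
    rw [lamp_mem hw, e, e, lamp_mem hw]
    simp
  · have h' : ¬ ∃ pt : Q × (κ → C), on (ρ q) z = on (ρ pt.1) (preT w pt.2) := by
      rintro ⟨⟨p, t⟩, hpt⟩
      apply h
      refine ⟨(q⁻¹ * p, t), ?_⟩
      simp only at hpt ⊢
      rw [map_mul, on_mul, ← hpt, map_inv, on_inv_on]
    rw [lamp_not_mem _ _ h, lamp_not_mem _ _ h']

variable (ρ η w) in
/-- The action of the regular wreath product on the cube. -/
noncomputable def act (x : RegularWreathProduct G Q) (z : κ → C) : κ → C :=
  lamp ρ η w x.left (on (ρ x.right) z)

theorem act_one (hw : Wandering ρ w) (z : κ → C) :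
    act ρ η w (1 : RegularWreathProduct G Q) z = z := by
  unfold act
  simp only [RegularWreathProduct.one_left, RegularWreathProduct.one_right, map_one, on_one]
  exact lamp_one hw z

theorem act_mul (hw : Wandering ρ w) (a b : RegularWreathProduct G Q) (z : κ → C) :
    act ρ η w (a * b) z = act ρ η w a (act ρ η w b z) := by
  unfold act
  simp only [RegularWreathProduct.mul_left, RegularWreathProduct.mul_right, map_mul, on_mul]
  rw [lamp_mul hw, lamp_translate hw]

/-- The wreath product acts on the cube by permutations. -/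
noncomputable def psi (hw : Wandering ρ w) (η : G →* BT κ) :
    RegularWreathProduct G Q →* Equiv.Perm (κ → C) :=
  MonoidHom.mk' (fun x =>
    { toFun := act ρ η w x
      invFun := act ρ η w x⁻¹
      left_inv := fun z => by
        rw [← act_mul hw, inv_mul_cancel, act_one hw]
      right_inv := fun z => by
        rw [← act_mul hw, mul_inv_cancel, act_one hw] })
    (fun a b => by
      ext z : 1
      exact act_mul hw a b z)

theorem psi_apply (hw : Wandering ρ w) (x : RegularWreathProduct G Q) (z : κ → C) :
    psi hw η x z = lamp ρ η w x.left (on (ρ x.right) z) := rfl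

theorem psi_inl (hw : Wandering ρ w) (q : Q) :
    psi hw η (⟨1, q⟩ : RegularWreathProduct G Q) = (ρ q : Equiv.Perm (κ → C)) := by
  ext z : 1
  rw [psi_apply]
  exact lamp_one hw _

open Classical in
theorem psi_base_one_mem (hw : Wandering ρ w) (g : G) :
    psi hw η (⟨Pi.mulSingle 1 g, 1⟩ : RegularWreathProduct G Q) ∈ BT κ := by
  intro z
  by_cases hz : ∃ t, z = preT w t
  · obtain ⟨t, rfl⟩ := hz
    obtain ⟨u, v, s, hs, ht⟩ := (η g).2 t
    refine ⟨fun i => w i ++ u i, fun i => w i ++ v i, s, ?_, fun t' => ?_⟩
    · rw [hs]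
      funext i
      simp only [preT, pre_append]
    · have e1 : preT (fun i => w i ++ u i) t' = on (ρ 1) (preT w (preT u t')) := by
        rw [map_one, on_one]
        funext i
        simp only [preT, pre_append]
      have e2 : preT (fun i => w i ++ v i) t' = on (ρ 1) (preT w (preT v t')) := by
        rw [map_one, on_one]
        funext i
        simp only [preT, pre_append]
      rw [e1, e2, psi_apply]
      simp only [map_one, on_one]
      have e3 : preT w (preT u t') = on (ρ 1) (preT w (preT u t')) := by
        rw [map_one, on_one]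
      rw [e3, lamp_mem hw]
      simp only [Pi.mulSingle_eq_same, map_one, on_one]
      exact congrArg (preT w) (ht t')
  · have key : ∀ i, ∃ (u : List Bool) (s : C), u.length = (w i).length ∧ z i = pre u s :=
      fun i => exists_split _ _
    choose u s hl hs using key
    refine ⟨u, u, s, funext hs, fun t' => ?_⟩
    rw [psi_apply]
    simp only [map_one, on_one]
    by_cases hy : ∃ pt : Q × (κ → C), preT u t' = on (ρ pt.1) (preT w pt.2)
    · obtain ⟨⟨p, t⟩, hpt⟩ := hy
      simp only at hpt
      rw [hpt, lamp_mem hw]
      by_cases hp : p = 1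
      · subst hp
        exfalso
        rw [map_one, on_one] at hpt
        apply hz
        have hu : u = w := by
          funext i
          exact (pre_word_eq (hl i) (congrFun hpt i)).1
        rw [hu] at hs
        exact ⟨s, funext hs⟩
      · have : (Pi.mulSingle 1 g : Q → G) p = 1 := Pi.mulSingle_eq_of_ne hp _
        rw [this, map_one, on_one]
    · exact lamp_not_mem _ _ hy

open Classical in
theorem psi_base_single_mem (hw : Wandering ρ w) (p : Q) (g : G) :
    psi hw η (⟨Pi.mulSingle p g, 1⟩ : RegularWreathProduct G Q) ∈ BT κ := by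
  have e : (⟨Pi.mulSingle p g, 1⟩ : RegularWreathProduct G Q)
      = ⟨1, p⟩ * ⟨Pi.mulSingle 1 g, 1⟩ * ⟨1, p⟩⁻¹ := by
    ext x
    · simp only [RegularWreathProduct.mul_left, RegularWreathProduct.inv_left,
        RegularWreathProduct.mul_right]
      by_cases hx : x = p
      · subst hx
        simp
      · have h1 : x⁻¹ * p ≠ 1 ∧ p⁻¹ * x ≠ 1 := by
          constructor
          · intro h
            exact hx (by rw [mul_eq_one_iff_eq_inv] at h; simpa using h)
          · intro h
            exact hx (by rw [mul_eq_one_iff_eq_inv] at h; simpa using h.symm)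
        simp [Pi.mulSingle_eq_of_ne hx, Pi.mulSingle_eq_of_ne h1.2]
    · simp
  rw [e, map_mul, map_mul, map_inv, psi_inl]
  exact (BT κ).mul_mem ((BT κ).mul_mem (ρ p).2 (psi_base_one_mem hw g)) ((BT κ).inv_mem (ρ p).2)

open Classical in
theorem psi_base_mem (hw : Wandering ρ w) (S : Finset Q) (b : Q → G)
    (hb : Function.mulSupport b ⊆ S) :
    psi hw η (⟨b, 1⟩ : RegularWreathProduct G Q) ∈ BT κ := by
  induction S using Finset.induction_on generalizing b with
  | empty =>
    have : b = 1 := by
      funext x
      by_contra h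
      have := hb h
      simp at this
    subst this
    have e : (⟨1, 1⟩ : RegularWreathProduct G Q) = 1 := rfl
    rw [e, map_one]
    exact (BT κ).one_mem
  | insert p S hp ih =>
    have e : (⟨b, 1⟩ : RegularWreathProduct G Q)
        = ⟨Pi.mulSingle p (b p), 1⟩ * ⟨Function.update b p 1, 1⟩ := by
      ext x
      · simp only [RegularWreathProduct.mul_left]
        by_cases hx : x = p
        · subst hx
          simp
        · simp [Pi.mulSingle_eq_of_ne hx, Function.update_of_ne hx]
      · simp
    rw [e, map_mul]
    refine (BT κ).mul_mem (psi_base_single_mem hw p (b p)) (ih _ ?_)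
    intro x hx
    have hx' : x ≠ p := by
      rintro rfl
      simp at hx
    have hx2 : b x ≠ 1 := by
      simpa [Function.update_of_ne hx'] using hx
    have := hb hx2
    simp only [Finset.coe_insert, Set.mem_insert_iff, Finset.mem_coe] at this
    rcases this with h | h
    · exact absurd h hx'
    · exact h

theorem psi_mem (hw : Wandering ρ w) (x : RegularWreathProduct G Q) (hx : x ∈ restricted G Q) :
    psi hw η x ∈ BT κ := by
  classical
  have e : x = ⟨x.left, 1⟩ * ⟨1, x.right⟩ := by
    ext y <;> simp
  rw [e, map_mul, psi_inl]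
  have hf : (Function.mulSupport x.left).Finite := hx
  exact (BT κ).mul_mem (psi_base_mem hw hf.toFinset _ hf.coe_toFinset.ge) (ρ x.right).2

theorem psi_injective (hw : Wandering ρ w) (hη : Function.Injective η) :
    Function.Injective (psi hw η : RegularWreathProduct G Q →* Equiv.Perm (κ → C)) := by
  rw [injective_iff_map_eq_one]
  intro x hx
  have hq : x.right = 1 := by
    by_contra hq
    have h1 := DFunLike.congr_fun hx (preT w (fun _ _ => false))
    rw [psi_apply] at h1
    have e : on (ρ x.right) (preT w (fun _ _ => false))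
        = on (ρ x.right) (preT w (fun _ _ => false)) := rfl
    rw [lamp_mem hw] at h1
    exact hw _ hq _ _ h1
  have hb : ∀ p, x.left p = 1 := by
    intro p
    apply hη
    rw [map_one]
    apply Subtype.ext
    ext t : 1
    have h1 := DFunLike.congr_fun hx (on (ρ p) (preT w t))
    rw [psi_apply, hq, map_one, on_one, lamp_mem hw] at h1
    have h2 := congrArg (on (ρ p)⁻¹) h1
    rw [on_inv_on] at h2
    have h3 : on (ρ p)⁻¹ ((1 : Equiv.Perm (κ → C)) (on (ρ p) (preT w t))) = preT w t := by
      show on (ρ p)⁻¹ (on (ρ p) (preT w t)) = preT w t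
      rw [on_inv_on]
    rw [h3] at h2
    exact preT_inj w h2
  ext y
  · rw [hb y]
    rfl
  · rw [hq]
    rfl

/-- **Wreath product theorem**. If `Q` acts through `ρ` on the cube with a wandering rectangle
and `η : G → BT κ` is injective then the restricted wreath product embeds in `BT κ`. -/
theorem exists_wreath_embedding (hw : Wandering ρ w) (hη : Function.Injective η) :
    ∃ Φ : restricted G Q →* BT κ, Function.Injective Φ ∧
      ∀ x, ((Φ x : BT κ) : Equiv.Perm (κ → C)) = psi hw η (x : RegularWreathProduct G Q) := by
  refine ⟨MonoidHom.codRestrict ((psi hw η).comp (restricted G Q).subtype) (BT κ)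
    (fun x => psi_mem hw x.1 x.2), ?_, fun _ => rfl⟩
  intro a b hab
  apply Subtype.ext
  apply psi_injective hw hη
  exact congrArg (fun x : BT κ => (x : Equiv.Perm (κ → C))) hab

end Action

end Vale.Agent.Lib.P193
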